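import Vale.Agent.P359.Bridge

open Vale.Agent.P359.S

theorem Vale.Agent.Results.P359.A_gap.result : ∃ N0 : ℕ, ∀ N ≥ N0,
    ∀ ψ : (Fin N → Fin (3 * (N - 1) + 1)) → ℂ, IsFermionic ψ →
      (1 / 10 : ℝ) * reInner ψ (ψ - laughlinProj N ψ) ≤ reInner ψ (hamiltonian ψ) :=
  Vale.Agent.P359.laughlin_gap'
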